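import Mathlib

/-! The Prekopa-Leindler inequality (midpoint form) for Lebesgue measure. -/

open MeasureTheory Set
open scoped ENNReal

namespace Vale.Agent.Lib.helper6

/-- The midpoint Prekopa-Leindler property of a measure on a real vector space. -/
def PL {X : Type*} [MeasurableSpace X] [AddCommGroup X] [Module ℝ X] (τ : Measure X) : Prop :=
  ∀ f g h : X → ℝ≥0∞, Measurable f → Measurable g → Measurable h →
    (∀ x y, f x * g y ≤ h ((1 / 2 : ℝ) • (x + y)) ^ 2) →
    (∫⁻ x, f x ∂τ) * (∫⁻ x, g x ∂τ) ≤ (∫⁻ x, h x ∂τ) ^ 2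

lemma vol_half (b : ℝ) (S : Set ℝ) :
    volume ((fun x : ℝ => (1 / 2 : ℝ) * (x + b)) ⁻¹' S) = 2 * volume S := by
  have h1 : ((fun x : ℝ => (1 / 2 : ℝ) * (x + b)) ⁻¹' S)
      = (fun x => x + b) ⁻¹' ((fun x => (1 / 2 : ℝ) * x) ⁻¹' S) := rfl
  rw [h1, measure_preimage_add_right, Real.volume_preimage_mul_left (by norm_num)]
  norm_num

lemma bm_compact {A B C : Set ℝ} (hA : IsCompact A) (hB : IsCompact B) (hAn : A.Nonempty)
    (hBn : B.Nonempty) (hC : ∀ x ∈ A, ∀ y ∈ B, (1 / 2 : ℝ) * (x + y) ∈ C) :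
    volume A + volume B ≤ 2 * volume C := by
  obtain ⟨a, ha⟩ := hA.exists_isGreatest hAn
  obtain ⟨b, hb⟩ := hB.exists_isLeast hBn
  set m : ℝ := (1 / 2 : ℝ) * (a + b) with hm
  have h1 : volume A ≤ 2 * volume (C ∩ Iic m) := by
    rw [← vol_half b]
    refine measure_mono fun x hx => ⟨hC x hx b hb.1, ?_⟩
    have := ha.2 hx
    simp only [mem_Iic, hm]
    linarith
  have h2 : volume B ≤ 2 * volume (C \ Iic m) := by
    rw [← vol_half a, ← measure_sdiff_null (t := {b}) (measure_singleton b)]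
    refine measure_mono fun y hy => ⟨?_, ?_⟩
    · have := hC a ha.1 y hy.1
      rwa [add_comm] at this
    · have h3 := hb.2 hy.1
      have h4 : y ≠ b := hy.2
      have h5 : b < y := lt_of_le_of_ne h3 h4.symm
      simp only [mem_Iic, hm, not_le]
      linarith
  calc volume A + volume B ≤ 2 * volume (C ∩ Iic m) + 2 * volume (C \ Iic m) := add_le_add h1 h2
    _ = 2 * volume C := by rw [← mul_add, measure_inter_add_sdiff _ measurableSet_Iic]

lemma bm_one {A B C : Set ℝ} (hA : MeasurableSet A) (hB : MeasurableSet B) (hAn : A.Nonempty)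
    (hBn : B.Nonempty) (hC : ∀ x ∈ A, ∀ y ∈ B, (1 / 2 : ℝ) * (x + y) ∈ C) :
    volume A + volume B ≤ 2 * volume C := by
  obtain ⟨a, ha⟩ := hAn
  obtain ⟨b, hb⟩ := hBn
  rw [hA.measure_eq_iSup_isCompact, hB.measure_eq_iSup_isCompact]
  simp only [iSup_and']
  refine ENNReal.biSup_add_biSup_le' ⟨∅, empty_subset _, isCompact_empty⟩
    ⟨∅, empty_subset _, isCompact_empty⟩ fun K hK L hL => ?_
  have := bm_compact (A := insert a K) (B := insert b L) (C := C) (hK.2.insert a) (hL.2.insert b)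
    (insert_nonempty _ _) (insert_nonempty _ _)
    (fun x hx y hy => hC x (insert_subset ha hK.1 hx) y (insert_subset hb hL.1 hy))
  exact le_trans (add_le_add (measure_mono (subset_insert _ _))
    (measure_mono (subset_insert _ _))) this

lemma layer {X : Type*} [MeasurableSpace X] (τ : Measure X) {f : X → ℝ≥0∞} (hf : Measurable f)
    (hfin : ∀ x, f x ≠ ⊤) :
    ∫⁻ x, f x ∂τ = ∫⁻ t in Ioi (0 : ℝ), τ {x | ENNReal.ofReal t < f x} := by
  have h := lintegral_eq_lintegral_meas_lt τ (f := fun x => (f x).toReal)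
    (Filter.Eventually.of_forall fun x => ENNReal.toReal_nonneg)
    hf.ennreal_toReal.aemeasurable
  simp only [ENNReal.ofReal_toReal (hfin _)] at h
  rw [h]
  refine setLIntegral_congr_fun measurableSet_Ioi fun t ht => ?_
  have : {x | ENNReal.ofReal t < f x} = {x | t < (f x).toReal} := by
    ext x
    exact ENNReal.ofReal_lt_iff_lt_toReal (le_of_lt ht) (hfin x)
  simp only [this]

lemma pl_normalized {f g h : ℝ → ℝ≥0∞} (hf : Measurable f) (hg : Measurable g)
    (hh : Measurable h) (hf1 : ⨆ x, f x = 1) (hg1 : ⨆ x, g x = 1)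
    (H : ∀ x y, f x * g y ≤ h ((1 / 2 : ℝ) * (x + y)) ^ 2) :
    (∫⁻ x, f x) + (∫⁻ x, g x) ≤ 2 * ∫⁻ x, h x := by
  have hfle : ∀ x, f x ≤ 1 := fun x => hf1 ▸ le_iSup f x
  have hgle : ∀ x, g x ≤ 1 := fun x => hg1 ▸ le_iSup g x
  have hk : Measurable fun x => min (h x) 1 := hh.min measurable_const
  have e1 := layer volume hf fun x => ne_top_of_le_ne_top ENNReal.one_ne_top (hfle x)
  have e2 := layer volume hg fun x => ne_top_of_le_ne_top ENNReal.one_ne_top (hgle x)
  have e3 := layer volume hk fun x => ne_top_of_le_ne_top ENNReal.one_ne_top (min_le_right _ _)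
  have e4 : ∫⁻ x, min (h x) 1 ≤ ∫⁻ x, h x := lintegral_mono fun x => min_le_left _ _
  refine le_trans ?_ (mul_le_mul_right e4 2)
  rw [e1, e2, e3, ← lintegral_const_mul' _ _ ENNReal.ofNat_ne_top]
  refine le_trans (le_lintegral_add _ _) (lintegral_mono fun t => ?_)
  by_cases ht : ENNReal.ofReal t < 1
  · refine bm_one (measurableSet_lt measurable_const hf) (measurableSet_lt measurable_const hg)
      ?_ ?_ fun x hx y hy => ?_
    · rw [← hf1, lt_iSup_iff] at ht
      exact ht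
    · rw [← hg1, lt_iSup_iff] at ht
      exact ht
    · simp only [mem_ofPred_eq, lt_min_iff] at hx hy ⊢
      refine ⟨?_, ht⟩
      by_contra hc
      push Not at hc
      have h1 : ENNReal.ofReal t * ENNReal.ofReal t < f x * g y := ENNReal.mul_lt_mul hx hy
      have h2 := le_trans (H x y) (pow_le_pow_left' hc 2)
      rw [sq] at h2
      exact absurd h1 (not_lt.mpr h2)
  · push Not at ht
    have h1 : {x | ENNReal.ofReal t < f x} = ∅ :=
      eq_empty_of_forall_notMem fun x hx => absurd hx (not_lt.mpr (le_trans (hfle x) ht))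
    have h2 : {x | ENNReal.ofReal t < g x} = ∅ :=
      eq_empty_of_forall_notMem fun x hx => absurd hx (not_lt.mpr (le_trans (hgle x) ht))
    simp [h1, h2]

lemma amgm {x y z : ℝ≥0∞} (h : x + y ≤ 2 * z) : x * y ≤ z ^ 2 := by
  rcases eq_or_ne z ⊤ with rfl | hz
  · simp
  have h2 : 2 * z ≠ ⊤ := ENNReal.mul_ne_top ENNReal.ofNat_ne_top hz
  have hx : x ≠ ⊤ := ne_top_of_le_ne_top h2 (le_trans le_self_add h)
  have hy : y ≠ ⊤ := ne_top_of_le_ne_top h2 (le_trans le_add_self h)
  lift x to NNReal using hx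
  lift y to NNReal using hy
  lift z to NNReal using hz
  have h3 : (x : ℝ) + y ≤ 2 * z := by exact_mod_cast h
  have h4 : (x : ℝ) * y ≤ z ^ 2 := by
    nlinarith [sq_nonneg ((x : ℝ) - y), x.coe_nonneg, y.coe_nonneg, z.coe_nonneg]
  exact_mod_cast h4

lemma pl_bounded {f g h : ℝ → ℝ≥0∞} (hf : Measurable f) (hg : Measurable g)
    (hh : Measurable h) (hf1 : ⨆ x, f x ≠ ⊤) (hg1 : ⨆ x, g x ≠ ⊤)
    (H : ∀ x y, f x * g y ≤ h ((1 / 2 : ℝ) * (x + y)) ^ 2) :
    (∫⁻ x, f x) * (∫⁻ x, g x) ≤ (∫⁻ x, h x) ^ 2 := by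
  set a := ⨆ x, f x with ha
  set b := ⨆ x, g x with hb
  rcases eq_or_ne a 0 with ha0 | ha0
  · have : ∀ x, f x = 0 := fun x => le_antisymm (ha0 ▸ le_iSup f x) zero_le
    simp [this]
  rcases eq_or_ne b 0 with hb0 | hb0
  · have : ∀ x, g x = 0 := fun x => le_antisymm (hb0 ▸ le_iSup g x) zero_le
    simp [this]
  set c : ℝ≥0∞ := (a⁻¹ * b⁻¹) ^ (1 / 2 : ℝ) with hc
  have hc2 : c ^ 2 = a⁻¹ * b⁻¹ := by
    rw [hc, ← ENNReal.rpow_natCast, ← ENNReal.rpow_mul]
    norm_num
  have key := pl_normalized (f := fun x => a⁻¹ * f x) (g := fun x => b⁻¹ * g x)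
    (h := fun x => c * h x) (hf.const_mul _) (hg.const_mul _) (hh.const_mul _)
    (by rw [← ENNReal.mul_iSup, ENNReal.inv_mul_cancel ha0 hf1])
    (by rw [← ENNReal.mul_iSup, ENNReal.inv_mul_cancel hb0 hg1])
    (fun x y => by
      rw [mul_pow, hc2, mul_mul_mul_comm]
      exact mul_le_mul_right (H x y) _)
  have k2 := amgm key
  rw [lintegral_const_mul _ hf, lintegral_const_mul _ hg, lintegral_const_mul _ hh, mul_pow, hc2,
    mul_mul_mul_comm] at k2
  have h0 : a⁻¹ * b⁻¹ ≠ 0 := mul_ne_zero (ENNReal.inv_ne_zero.2 hf1) (ENNReal.inv_ne_zero.2 hg1)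
  have h1 : a⁻¹ * b⁻¹ ≠ ⊤ :=
    ENNReal.mul_ne_top (ENNReal.inv_ne_top.2 ha0) (ENNReal.inv_ne_top.2 hb0)
  exact (ENNReal.mul_le_mul_iff_right h0 h1).1 k2

lemma lintegral_trunc {f : ℝ → ℝ≥0∞} (hf : Measurable f) :
    ∫⁻ x, f x = ⨆ n : ℕ, ∫⁻ x, min (f x) n := by
  rw [← lintegral_iSup (fun n => hf.min measurable_const)
    (fun m n hmn x => min_le_min_left _ (by exact_mod_cast hmn))]
  congr 1
  ext x
  rw [← inf_iSup_eq, ENNReal.iSup_natCast]
  simp

lemma pl_real : PL (volume : Measure ℝ) := by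
  intro f g h hf hg hh H
  rw [lintegral_trunc hf, lintegral_trunc hg, ENNReal.iSup_mul]
  refine iSup_le fun n => ?_
  rw [ENNReal.mul_iSup]
  refine iSup_le fun m => ?_
  refine pl_bounded (hf.min measurable_const) (hg.min measurable_const) hh ?_ ?_ fun x y => ?_
  · exact ne_top_of_le_ne_top (ENNReal.natCast_ne_top n) (iSup_le fun x => min_le_right _ _)
  · exact ne_top_of_le_ne_top (ENNReal.natCast_ne_top m) (iSup_le fun x => min_le_right _ _)
  · exact le_trans (mul_le_mul' (min_le_left _ _) (min_le_left _ _)) (H x y)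

lemma PL.prod {X Y : Type*} [MeasurableSpace X] [AddCommGroup X] [Module ℝ X]
    [MeasurableSpace Y] [AddCommGroup Y] [Module ℝ Y] {τ : Measure X} {σ : Measure Y}
    [SFinite σ] (hτ : PL τ) (hσ : PL σ) : PL (τ.prod σ) := by
  intro f g h hf hg hh H
  rw [lintegral_prod _ hf.aemeasurable, lintegral_prod _ hg.aemeasurable,
    lintegral_prod _ hh.aemeasurable]
  refine hτ _ _ _ hf.lintegral_prod_right' hg.lintegral_prod_right' hh.lintegral_prod_right'
    fun x x' => ?_
  exact hσ _ _ _ (hf.comp measurable_prodMk_left) (hg.comp measurable_prodMk_left)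
    (hh.comp measurable_prodMk_left) fun y y' => H (x, y) (x', y')

lemma PL.transfer {X Y : Type*} [MeasurableSpace X] [AddCommGroup X] [Module ℝ X]
    [MeasurableSpace Y] [AddCommGroup Y] [Module ℝ Y] {τ : Measure X} {σ : Measure Y}
    (hτ : PL τ) {e : X → Y} (he : MeasurePreserving e τ σ)
    (hmid : ∀ x y, e ((1 / 2 : ℝ) • (x + y)) = (1 / 2 : ℝ) • (e x + e y)) : PL σ := by
  intro f g h hf hg hh H
  rw [← he.lintegral_comp hf, ← he.lintegral_comp hg, ← he.lintegral_comp hh]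
  refine hτ _ _ _ (hf.comp he.measurable) (hg.comp he.measurable) (hh.comp he.measurable)
    fun x y => ?_
  rw [hmid]
  exact H _ _

lemma PL.smul {X : Type*} [MeasurableSpace X] [AddCommGroup X] [Module ℝ X] {τ : Measure X}
    (hτ : PL τ) (c : ℝ≥0∞) : PL (c • τ) := by
  intro f g h hf hg hh H
  simp only [lintegral_smul_measure, smul_eq_mul]
  rw [mul_mul_mul_comm, mul_pow, sq c]
  exact mul_le_mul_right (hτ f g h hf hg hh H) _

lemma pl_pi (n : ℕ) : PL (volume : Measure (Fin n → ℝ)) := by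
  induction n with
  | zero =>
    intro f g h hf hg hh H
    rw [Measure.volume_pi_eq_dirac 0]
    simp only [lintegral_dirac]
    have := H 0 0
    simpa using this
  | succ n ih =>
    have he := (volume_preserving_piFinSuccAbove (fun _ : Fin (n + 1) => ℝ) 0).symm
    refine PL.transfer (pl_real.prod ih) he fun x y => ?_
    ext i
    refine Fin.cases ?_ (fun j => ?_) i <;> simp [MeasurableEquiv.piFinSuccAbove, mul_add]

/-- Prekopa-Leindler on Euclidean space. -/
theorem pl_euclidean (n : ℕ) : PL (volume : Measure (EuclideanSpace ℝ (Fin n))) :=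
  PL.transfer (pl_pi n) (PiLp.volume_preserving_toLp (Fin n)) fun _ _ => rfl

end Vale.Agent.Lib.helper6
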